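import Mathlib
import Vale.Agent.H27.PoissonFact
import Vale.Agent.H96.P171.Defs
import Vale.Agent.H96.P171.Energy.Lsum

/-!
# P171 moonshot: bridge between the list formalism and the one-body + pair model (helper4)

`Xi_eq_PF`: the grand partition function `Vale.Agent.H96.P171.Xi A μ t` (lists, `gInt`) equals
`Vale.Agent.H27.PF.Xi volume (A.indicator fun _ => e^μ) (fun x y => e^(-Phi t (dist x y) / 2))`.
More generally `gInt_pair_eq_PF` for any pair function `g` in place of `Phi t`.
-/

open MeasureTheory ENNReal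
open scoped BigOperators

namespace Vale.Agent.H4.P171

open Vale.Agent.H96.P171

/-- The pair factor of the potential `g`: `exp(-g(|x-y|)/2)` per ordered pair. -/
noncomputable def pairFactor (g : ℝ → ℝ) (x y : E3) : ℝ≥0∞ :=
  ENNReal.ofReal (Real.exp (-(g (dist x y)) / 2))

/-- The one-body factor `e^μ` on the region `A`. -/
noncomputable def oneBody (A : Set E3) (μ : ℝ) : E3 → ℝ≥0∞ :=
  A.indicator fun _ => ENNReal.ofReal (Real.exp μ)

theorem sum_offdiag_eq {N : ℕ} (g : Fin N → Fin N → ℝ) (hg : ∀ i j, g i j = g j i) :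
    ∑ i, ∑ j, (if i = j then 0 else g i j) = 2 * ∑ i, ∑ j, (if i < j then g i j else 0) := by
  have h1 : ∀ i j : Fin N, (if i = j then 0 else g i j)
      = (if i < j then g i j else 0) + (if j < i then g j i else 0) := by
    intro i j
    rcases lt_trichotomy i j with h | h | h
    · simp [h, h.ne, not_lt_of_gt h]
    · subst h; simp
    · simp [h, h.ne', not_lt_of_gt h, hg i j]
  simp_rw [h1, Finset.sum_add_distrib]
  rw [two_mul]
  congr 1
  rw [Finset.sum_comm]

/-- Pointwise identity of the weights. -/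
theorem wt_eq_ofReal_exp (g : ℝ → ℝ) (A : Set E3) (μ : ℝ) {k : ℕ} (x : Fin k → E3)
    (hx : ∀ i, x i ∈ A) :
    Vale.Agent.H27.PF.wt (oneBody A μ) (pairFactor g) x
      = ENNReal.ofReal (Real.exp (μ * (k : ℝ)
          - ∑ i : Fin k, ∑ j : Fin k, if i < j then g (dist (x i) (x j)) else 0)) := by
  unfold Vale.Agent.H27.PF.wt
  have h1 : ∏ i, oneBody A μ (x i) = ENNReal.ofReal (Real.exp (μ * (k : ℝ))) := by
    have : ∀ i, oneBody A μ (x i) = ENNReal.ofReal (Real.exp μ) := fun i => by
      unfold oneBody; rw [Set.indicator_of_mem (hx i)]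
    simp only [this, Finset.prod_const, Finset.card_univ, Fintype.card_fin]
    rw [← ENNReal.ofReal_pow (Real.exp_pos μ).le, ← Real.exp_nat_mul, mul_comm]
  have h2 : (∏ i, ∏ j, if i = j then (1 : ℝ≥0∞) else pairFactor g (x i) (x j))
      = ENNReal.ofReal (Real.exp (∑ i : Fin k, ∑ j : Fin k,
          if i = j then 0 else -(g (dist (x i) (x j))) / 2)) := by
    rw [Real.exp_sum, ENNReal.ofReal_prod_of_nonneg (fun i _ => (Real.exp_pos _).le)]
    refine Finset.prod_congr rfl fun i _ => ?_
    rw [Real.exp_sum, ENNReal.ofReal_prod_of_nonneg (fun j _ => (Real.exp_pos _).le)]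
    refine Finset.prod_congr rfl fun j _ => ?_
    split_ifs
    · simp
    · rfl
  rw [h1, h2, ← ENNReal.ofReal_mul (Real.exp_pos _).le, ← Real.exp_add]
  congr 2
  have h3 := sum_offdiag_eq (fun i j : Fin k => -(g (dist (x i) (x j))) / 2)
    (fun i j => by rw [dist_comm])
  rw [h3]
  have h4 : ∀ i j : Fin k, (if i < j then -(g (dist (x i) (x j))) / 2 else 0)
      = (-(1 / 2 : ℝ)) * (if i < j then g (dist (x i) (x j)) else 0) := by
    intro i j; split_ifs <;> ring
  simp_rw [h4, ← Finset.mul_sum]
  ring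

/-- Bridge for a general pair function: the list integral of `exp(μ |l| - lsum g l)` over the
region `A` is the one-body + pair partition function. -/
theorem gInt_pair_eq_PF (g : ℝ → ℝ) (A : Set E3) (μ : ℝ) :
    gInt A (fun l => ENNReal.ofReal (Real.exp (μ * (l.length : ℝ)
        - lsum (fun a b => g (dist a b)) l)))
      = Vale.Agent.H27.PF.Xi volume (oneBody A μ) (pairFactor g) := by
  unfold gInt Vale.Agent.H27.PF.Xi
  refine tsum_congr fun k => ?_
  rw [ENNReal.div_eq_inv_mul]
  congr 1
  unfold cInt Vale.Agent.H27.PF.Zc Vale.Agent.H27.PF.Zι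
  refine lintegral_congr fun x => ?_
  by_cases hx : ∀ i, x i ∈ A
  · rw [Set.indicator_of_mem (by exact hx), wt_eq_ofReal_exp g A μ x hx]
    beta_reduce
    rw [lsum_ofFn, List.length_ofFn]
  · rw [Set.indicator_of_notMem (by exact hx)]
    push Not at hx
    obtain ⟨i, hi⟩ := hx
    unfold Vale.Agent.H27.PF.wt
    have h0 : ∏ i, oneBody A μ (x i) = 0 :=
      Finset.prod_eq_zero (Finset.mem_univ i) (by unfold oneBody; exact Set.indicator_of_notMem hi _)
    rw [h0, zero_mul]

/-- **Bridge**: the grand partition function of the list formalism is the one-body + pair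
partition function with one-body factor `e^μ 1_A` and pair factor `exp(-Phi t/2)`. -/
theorem Xi_eq_PF (A : Set E3) (μ : ℝ) (t : ℕ → ℝ) :
    Vale.Agent.H96.P171.Xi A μ t
      = Vale.Agent.H27.PF.Xi volume (oneBody A μ) (pairFactor (Phi t)) :=
  gInt_pair_eq_PF (Phi t) A μ

end Vale.Agent.H4.P171
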