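import Mathlib
import Vale.Agent.H96.P171.Setting
import Vale.Agent.H96.P171.Defs
import Vale.Agent.H96.P171.Fekete
import Vale.Agent.H96.P171.Kink
import Vale.Agent.H96.P171.Bridge
import Vale.Agent.H96.P171.Tail
import Vale.Agent.H96.P171.FinalJump

/-!
# P171: the kink theorem with the family of potentials written out (helper4)

Same proof as `Vale.Agent.H96.P171.final_jump`; the statement exhibits the form of the
potential: `φ(r) = r^(-4) 1[r < 1] - ∑ t_n R_n^(-3) 1[r < R_n]`, `R_n = 4 (n+1)! + 2`, for some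
summable sequence `t_n ≥ 0`.
-/

open MeasureTheory

namespace Vale.Agent.H4.P171

open Vale.Agent.H96.P171

theorem explicit_family : ∃ t : ℕ → ℝ, (∀ n, 0 ≤ t n) ∧ Summable t ∧ ∃ φ : ℝ → ℝ,
    (∀ r : ℝ, φ r = (if r < 1 then (r⁻¹) ^ 4 else 0)
      - ∑' n : ℕ, t n * (if r < 4 * ((n + 1).factorial : ℝ) + 2
          then ((4 * ((n + 1).factorial : ℝ) + 2)⁻¹) ^ 3 else 0)) ∧
    Measurable φ ∧
    (∀ a b : ℝ, 0 < a → a ≤ b → ∃ M : ℝ, ∀ r ∈ Set.Icc a b, |φ r| ≤ M) ∧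
    Stable φ ∧ Tempered φ ∧
    (∀ r : ℝ, 1 ≤ r → φ r ≤ 0) ∧
    (∃ C : ℝ, ∀ r : ℝ, 1 ≤ r → |φ r| ≤ C / r ^ 3) ∧
    IntegrableOn (fun r : ℝ => φ r * r ^ 2) (Set.Ici 1) ∧
    (∀ (L : ℝ) (N : ℕ), IntegrableOn (fun x : Fin N → E3 => Real.exp (-(1 * pairEnergy φ N x)))
      {x : Fin N → E3 | ∀ i, x i ∈ box L}) ∧
    (∀ L z : ℝ, 0 < z → Summable fun N : ℕ => z ^ N * canonicalZ φ 1 L N) ∧
    ∃ P : ℝ → ℝ,
      (∀ z : ℝ, 0 < z →
        Filter.Tendsto (fun L : ℝ => Real.log (grandZ φ 1 L z) / L ^ 3) Filter.atTop (nhds (P z))) ∧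
      ∃ z0 : ℝ, 0 < z0 ∧ ¬ DifferentiableAt ℝ P z0 ∧
        ∃ dl dr : ℝ, dl < dr ∧ HasDerivWithinAt P dl (Set.Iio z0) z0 ∧
          HasDerivWithinAt P dr (Set.Ioi z0) z0 := by
  obtain ⟨t, μ', ht, hnd⟩ := kink
  refine ⟨t, ht.1, ht.2, Phi t, fun r => rfl, measurable_Phi t ht, phi_locbdd t ht,
    phi_stable t ht, phi_tempered t ht, fun r hr => Phi_nonpos t ht r hr, ⟨∑' n, t n, ?_⟩,
    tail_integrable t ht, boltz_integrable t ht, ?_, ?_⟩
  · intro r hr
    have h1 := Phi_nonpos t ht r hr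
    have h2 := Phi_ge t ht r hr
    have hr0 : (0 : ℝ) < r := lt_of_lt_of_le one_pos hr
    rw [abs_of_nonpos h1, div_eq_mul_inv, ← inv_pow]
    linarith
  · intro L z hz
    exact grandZ_summable t ht L z hz
  · refine ⟨fun z => Fp (Real.log z) t, ?_, Real.exp μ', Real.exp_pos μ', ?_, ?_⟩
    · intro z hz
      have h1 := tendsto_pressure t ht (Real.log z)
      refine h1.congr' ?_
      filter_upwards [Filter.eventually_ge_atTop (0 : ℝ)] with L hL
      rw [grandZ_eq t ht L hL z hz]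
      rfl
    · intro hdiff
      apply hnd
      have h2 : DifferentiableAt ℝ
          ((fun z : ℝ => Fp (Real.log z) t) ∘ Real.exp) μ' :=
        DifferentiableAt.comp μ' hdiff Real.differentiableAt_exp
      have h3 : ((fun z : ℝ => Fp (Real.log z) t) ∘ Real.exp) = fun m : ℝ => Fp m t := by
        funext m
        simp [Function.comp, Real.log_exp]
      rw [h3] at h2
      exact h2
    · obtain ⟨a, b, hab, hl, hr⟩ :=
        jump_of_convex (fun m : ℝ => Fp m t) (jump_convex t ht) μ' hnd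
      have hz : (0 : ℝ) < (Real.exp μ')⁻¹ := inv_pos.mpr (Real.exp_pos μ')
      exact ⟨a * (Real.exp μ')⁻¹, b * (Real.exp μ')⁻¹, mul_lt_mul_of_pos_right hab hz,
        jump_log_left (fun m : ℝ => Fp m t) μ' a hl,
        jump_log_right (fun m : ℝ => Fp m t) μ' b hr⟩

end Vale.Agent.H4.P171
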