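import Mathlib
import Vale.Agent.H27.PoissonFact

/-!
# P171 moonshot, measure-layer glue for the one-body + pair model `PF.Xi ν w ψ` (helper4)

Definitions: `Vale.Agent.H27.PF.wt / Zι / Zc / Xi` (helper27, `Vale/Agent/H27/PoissonFact.lean`).

* (MO) `Xi_mono_wt`, `Xi_mono_wt_ae`, `Xi_mono_wt_inj`: monotonicity from a configuration-level
  inequality of weights (for all / almost all / all injective configurations).
* (CO) `Xi_indicator_congr`, `Xi_indicator_mono`: with one-body weight `D.indicator w` only the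
  values of the pair factor on `D × D` matter.
* (DG) `ae_injective_pi`: almost every configuration consists of distinct points.
* (HOc) `Xi_le_prod_rpow`, `Xi_le_prod_rpow_ae`, `Xi_le_prod_rpow_inj`: configuration-level
  generalised Hoelder inequality.
-/

open MeasureTheory ENNReal
open scoped BigOperators

namespace Vale.Agent.H4.P171

open Vale.Agent.H27.PF

variable {E : Type*} [MeasurableSpace E]

/-! ### (MO) monotonicity -/

theorem Xi_mono_wt_ae (ν : Measure E) {w w' : E → ℝ≥0∞} {ψ ψ' : E → E → ℝ≥0∞}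
    (h : ∀ N : ℕ, ∀ᵐ x ∂(Measure.pi fun _ : Fin N => ν), wt w ψ x ≤ wt w' ψ' x) :
    Xi ν w ψ ≤ Xi ν w' ψ' := by
  unfold Xi Zc Zι
  exact ENNReal.tsum_le_tsum fun N => mul_le_mul' le_rfl (lintegral_mono_ae (h N))

theorem Xi_mono_wt (ν : Measure E) {w w' : E → ℝ≥0∞} {ψ ψ' : E → E → ℝ≥0∞}
    (h : ∀ (N : ℕ) (x : Fin N → E), wt w ψ x ≤ wt w' ψ' x) :
    Xi ν w ψ ≤ Xi ν w' ψ' :=
  Xi_mono_wt_ae ν fun N => Filter.Eventually.of_forall (h N)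

/-! ### (CO) congruence on the support of the one-body weight -/

omit [MeasurableSpace E] in
theorem wt_indicator_congr {D : Set E} {w : E → ℝ≥0∞} {ψ ψ' : E → E → ℝ≥0∞}
    (h : ∀ x ∈ D, ∀ y ∈ D, ψ x y = ψ' x y)
    {I : Type*} [Fintype I] [DecidableEq I] (x : I → E) :
    wt (D.indicator w) ψ x = wt (D.indicator w) ψ' x := by
  unfold wt
  by_cases hx : ∀ i, x i ∈ D
  · congr 1
    refine Finset.prod_congr rfl fun i _ => Finset.prod_congr rfl fun j _ => ?_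
    split_ifs
    · rfl
    · exact h _ (hx i) _ (hx j)
  · push Not at hx
    obtain ⟨i, hi⟩ := hx
    have h0 : ∏ i, D.indicator w (x i) = 0 :=
      Finset.prod_eq_zero (Finset.mem_univ i) (Set.indicator_of_notMem hi w)
    rw [h0, zero_mul, zero_mul]

omit [MeasurableSpace E] in
theorem wt_indicator_mono {D : Set E} {w : E → ℝ≥0∞} {ψ ψ' : E → E → ℝ≥0∞}
    (h : ∀ x ∈ D, ∀ y ∈ D, ψ x y ≤ ψ' x y)
    {I : Type*} [Fintype I] [DecidableEq I] (x : I → E) :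
    wt (D.indicator w) ψ x ≤ wt (D.indicator w) ψ' x := by
  unfold wt
  by_cases hx : ∀ i, x i ∈ D
  · refine mul_le_mul' le_rfl ?_
    refine Finset.prod_le_prod' fun i _ => Finset.prod_le_prod' fun j _ => ?_
    split_ifs
    · exact le_rfl
    · exact h _ (hx i) _ (hx j)
  · push Not at hx
    obtain ⟨i, hi⟩ := hx
    have h0 : ∏ i, D.indicator w (x i) = 0 :=
      Finset.prod_eq_zero (Finset.mem_univ i) (Set.indicator_of_notMem hi w)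
    rw [h0, zero_mul, zero_mul]

theorem Xi_indicator_congr (ν : Measure E) {D : Set E} {w : E → ℝ≥0∞} {ψ ψ' : E → E → ℝ≥0∞}
    (h : ∀ x ∈ D, ∀ y ∈ D, ψ x y = ψ' x y) :
    Xi ν (D.indicator w) ψ = Xi ν (D.indicator w) ψ' := by
  unfold Xi Zc Zι
  refine tsum_congr fun N => ?_
  congr 1
  exact lintegral_congr fun x => wt_indicator_congr h x

theorem Xi_indicator_mono (ν : Measure E) {D : Set E} {w : E → ℝ≥0∞} {ψ ψ' : E → E → ℝ≥0∞}
    (h : ∀ x ∈ D, ∀ y ∈ D, ψ x y ≤ ψ' x y) :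
    Xi ν (D.indicator w) ψ ≤ Xi ν (D.indicator w) ψ' :=
  Xi_mono_wt ν fun _ x => wt_indicator_mono h x


/-! ### (DG) the diagonal is a null set -/

theorem ae_injective_pi {V : Type*} [NormedAddCommGroup V] [NormedSpace ℝ V] [MeasurableSpace V]
    [BorelSpace V] [FiniteDimensional ℝ V] [Nontrivial V] (ν : Measure V) [ν.IsAddHaarMeasure]
    (N : ℕ) : ∀ᵐ x ∂(Measure.pi fun _ : Fin N => ν), Function.Injective x := by
  rw [ae_iff]
  have hsub : {x : Fin N → V | ¬ Function.Injective x} ⊆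
      ⋃ (p : {p : Fin N × Fin N // p.1 ≠ p.2}),
        ((LinearMap.ker ((LinearMap.proj p.1.1 : (Fin N → V) →ₗ[ℝ] V) - LinearMap.proj p.1.2) :
          Submodule ℝ (Fin N → V)) : Set (Fin N → V)) := by
    intro x hx
    simp only [Function.Injective, not_forall, Set.mem_ofPred_eq] at hx
    obtain ⟨i, j, hij, hne⟩ := hx
    refine Set.mem_iUnion.2 ⟨⟨(i, j), hne⟩, ?_⟩
    simp [hij]
  refine measure_mono_null hsub (measure_iUnion_null fun p => ?_)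
  apply Measure.addHaar_submodule
  intro htop
  obtain ⟨v, hv⟩ := exists_ne (0 : V)
  have hmem : (Pi.single p.1.1 v : Fin N → V) ∈
      LinearMap.ker ((LinearMap.proj p.1.1 : (Fin N → V) →ₗ[ℝ] V) - LinearMap.proj p.1.2) := by
    rw [htop]; trivial
  have hne : p.1.1 ≠ p.1.2 := p.2
  simp [LinearMap.mem_ker, hne] at hmem
  exact hv hmem

theorem Xi_mono_wt_inj {V : Type*} [NormedAddCommGroup V] [NormedSpace ℝ V] [MeasurableSpace V]
    [BorelSpace V] [FiniteDimensional ℝ V] [Nontrivial V] (ν : Measure V) [ν.IsAddHaarMeasure]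
    {w w' : V → ℝ≥0∞} {ψ ψ' : V → V → ℝ≥0∞}
    (h : ∀ (N : ℕ) (x : Fin N → V), Function.Injective x → wt w ψ x ≤ wt w' ψ' x) :
    Xi ν w ψ ≤ Xi ν w' ψ' :=
  Xi_mono_wt_ae ν fun N => (ae_injective_pi ν N).mono fun x hx => h N x hx

/-! ### (HOc) configuration-level Hölder inequality -/

/-- Hölder for a weighted series: `∑' N, c N * ∏ a, f a N ^ p a ≤ ∏ a, (∑' N, c N * f a N) ^ p a`. -/
theorem tsum_mul_prod_rpow_le {ι : Type*} (s : Finset ι) (p : ι → ℝ) (hp0 : ∀ a ∈ s, 0 ≤ p a)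
    (hp1 : ∑ a ∈ s, p a = 1) (c : ℕ → ℝ≥0∞) (f : ι → ℕ → ℝ≥0∞) :
    ∑' N, c N * ∏ a ∈ s, f a N ^ p a ≤ ∏ a ∈ s, (∑' N, c N * f a N) ^ p a := by
  have key : ∀ g : ℕ → ℝ≥0∞,
      ∫⁻ N, g N ∂(Measure.sum fun N : ℕ => c N • Measure.dirac N) = ∑' N, c N * g N := by
    intro g
    rw [lintegral_sum_measure]
    refine tsum_congr fun N => ?_
    rw [lintegral_smul_measure, lintegral_dirac]
    rfl
  have h := ENNReal.lintegral_prod_norm_pow_le (μ := Measure.sum fun N : ℕ => c N • Measure.dirac N)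
    s (f := f) (fun a _ => (Measurable.of_discrete).aemeasurable) hp1 hp0
  rw [key] at h
  simpa only [key] using h

theorem Xi_le_prod_rpow_ae {ι : Type*} (s : Finset ι) (p : ι → ℝ) (hp0 : ∀ a ∈ s, 0 ≤ p a)
    (hp1 : ∑ a ∈ s, p a = 1) (ν : Measure E) (w : E → ℝ≥0∞) (ψ : E → E → ℝ≥0∞)
    (w' : ι → E → ℝ≥0∞) (ψ' : ι → E → E → ℝ≥0∞)
    (hw' : ∀ a ∈ s, Measurable (w' a)) (hψ' : ∀ a ∈ s, Measurable (Function.uncurry (ψ' a)))
    (h : ∀ N : ℕ, ∀ᵐ x ∂(Measure.pi fun _ : Fin N => ν),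
      wt w ψ x ≤ ∏ a ∈ s, wt (w' a) (ψ' a) x ^ p a) :
    Xi ν w ψ ≤ ∏ a ∈ s, Xi ν (w' a) (ψ' a) ^ p a := by
  have h1 : ∀ N : ℕ, Zc ν w ψ N ≤ ∏ a ∈ s, Zc ν (w' a) (ψ' a) N ^ p a := by
    intro N
    unfold Zc Zι
    refine (lintegral_mono_ae (h N)).trans ?_
    exact ENNReal.lintegral_prod_norm_pow_le s
      (fun a ha => (measurable_wt (hw' a ha) (hψ' a ha) (Fin N)).aemeasurable) hp1 hp0
  calc Xi ν w ψ = ∑' N : ℕ, (((N.factorial : ℕ) : ℝ≥0∞))⁻¹ * Zc ν w ψ N := rfl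
    _ ≤ ∑' N : ℕ, (((N.factorial : ℕ) : ℝ≥0∞))⁻¹ * ∏ a ∈ s, Zc ν (w' a) (ψ' a) N ^ p a :=
        ENNReal.tsum_le_tsum fun N => mul_le_mul' le_rfl (h1 N)
    _ ≤ ∏ a ∈ s, (∑' N : ℕ, (((N.factorial : ℕ) : ℝ≥0∞))⁻¹ * Zc ν (w' a) (ψ' a) N) ^ p a :=
        tsum_mul_prod_rpow_le s p hp0 hp1 _ _
    _ = ∏ a ∈ s, Xi ν (w' a) (ψ' a) ^ p a := rfl

theorem Xi_le_prod_rpow {ι : Type*} (s : Finset ι) (p : ι → ℝ) (hp0 : ∀ a ∈ s, 0 ≤ p a)
    (hp1 : ∑ a ∈ s, p a = 1) (ν : Measure E) (w : E → ℝ≥0∞) (ψ : E → E → ℝ≥0∞)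
    (w' : ι → E → ℝ≥0∞) (ψ' : ι → E → E → ℝ≥0∞)
    (hw' : ∀ a ∈ s, Measurable (w' a)) (hψ' : ∀ a ∈ s, Measurable (Function.uncurry (ψ' a)))
    (h : ∀ (N : ℕ) (x : Fin N → E), wt w ψ x ≤ ∏ a ∈ s, wt (w' a) (ψ' a) x ^ p a) :
    Xi ν w ψ ≤ ∏ a ∈ s, Xi ν (w' a) (ψ' a) ^ p a :=
  Xi_le_prod_rpow_ae s p hp0 hp1 ν w ψ w' ψ' hw' hψ' fun N => Filter.Eventually.of_forall (h N)

theorem Xi_le_prod_rpow_inj {V : Type*} [NormedAddCommGroup V] [NormedSpace ℝ V]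
    [MeasurableSpace V] [BorelSpace V] [FiniteDimensional ℝ V] [Nontrivial V] (ν : Measure V)
    [ν.IsAddHaarMeasure] {ι : Type*} (s : Finset ι) (p : ι → ℝ) (hp0 : ∀ a ∈ s, 0 ≤ p a)
    (hp1 : ∑ a ∈ s, p a = 1) (w : V → ℝ≥0∞) (ψ : V → V → ℝ≥0∞)
    (w' : ι → V → ℝ≥0∞) (ψ' : ι → V → V → ℝ≥0∞)
    (hw' : ∀ a ∈ s, Measurable (w' a)) (hψ' : ∀ a ∈ s, Measurable (Function.uncurry (ψ' a)))
    (h : ∀ (N : ℕ) (x : Fin N → V), Function.Injective x →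
      wt w ψ x ≤ ∏ a ∈ s, wt (w' a) (ψ' a) x ^ p a) :
    Xi ν w ψ ≤ ∏ a ∈ s, Xi ν (w' a) (ψ' a) ^ p a :=
  Xi_le_prod_rpow_ae s p hp0 hp1 ν w ψ w' ψ' hw' hψ' fun N =>
    (ae_injective_pi ν N).mono fun x hx => h N x hx

end Vale.Agent.H4.P171
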