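import Mathlib
import Vale.Agent.H27.PoissonFact
import Vale.Agent.H72.P171.XiScale
import Vale.Agent.H79.LP.Cells
import Vale.Agent.H4.P171.XiBasic

/-!
# P171 moonshot, LP2: the measure step of the Lebowitz-Penrose upper bound (helper4)

One-body + pair model `PF.Xi volume w ψ` (helper27), grids of helper79 (`Cells.lean`).
From the pointwise inequality (H2) between configuration weights (needed only for injective
configurations inside the box) to the bound of the partition function of the box `[0, K l]^3`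
by the `(K+2)^3`-th power of a one-cell partition function:
monotonicity, Hoelder over the `l^3` shifted grids, covering of the box by cells,
Poisson factorisation, cell congruence, translation invariance.
-/

open MeasureTheory ENNReal
open scoped BigOperators

namespace Vale.Agent.H4.P171

open Vale.Agent.H27.PF Vale.Agent.H79.LP

/-- The pair factor of the grid `(l, a)`: `γ * χ2` inside a cell, `1` across cells. -/
noncomputable def chiGrid (l : ℕ) (a : Fin 3 → ℤ) (γ : ℝ≥0∞) (χ2 : E3 → E3 → ℝ≥0∞)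
    (x y : E3) : ℝ≥0∞ :=
  @ite _ (sameCell l a x y) (Classical.propDecidable _) (γ * χ2 x y) 1

theorem chiGrid_of_sameCell {l : ℕ} {a : Fin 3 → ℤ} {γ : ℝ≥0∞} {χ2 : E3 → E3 → ℝ≥0∞}
    {x y : E3} (h : sameCell l a x y) : chiGrid l a γ χ2 x y = γ * χ2 x y := by
  unfold chiGrid; exact if_pos h

theorem chiGrid_of_not_sameCell {l : ℕ} {a : Fin 3 → ℤ} {γ : ℝ≥0∞} {χ2 : E3 → E3 → ℝ≥0∞}
    {x y : E3} (h : ¬ sameCell l a x y) : chiGrid l a γ χ2 x y = 1 := by
  unfold chiGrid; exact if_neg h

theorem lp2_measurable_coord (i : Fin 3) : Measurable (fun p : E3 => p i) :=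
  (EuclideanSpace.proj i).continuous.measurable

theorem lp2_measurableSet_sameCell (l : ℕ) (a : Fin 3 → ℤ) :
    MeasurableSet {q : E3 × E3 | sameCell l a q.1 q.2} := by
  have h : {q : E3 × E3 | sameCell l a q.1 q.2}
      = ⋂ i : Fin 3, {q : E3 × E3 | ⌊(q.1 i - (a i : ℝ)) / (l : ℝ)⌋
          = ⌊(q.2 i - (a i : ℝ)) / (l : ℝ)⌋} := by
    ext q
    simp only [sameCell, cellIdx, Set.mem_ofPred_eq, Set.mem_iInter, funext_iff]
  rw [h]
  refine MeasurableSet.iInter fun i => ?_
  have hf : Measurable (fun p : E3 => ⌊(p i - (a i : ℝ)) / (l : ℝ)⌋) :=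
    Int.measurable_floor.comp (((lp2_measurable_coord i).sub_const _).div_const _)
  exact measurableSet_eq_fun (hf.comp measurable_fst) (hf.comp measurable_snd)

theorem lp2_measurable_chiGrid (l : ℕ) (a : Fin 3 → ℤ) (γ : ℝ≥0∞) (χ2 : E3 → E3 → ℝ≥0∞)
    (hχ2 : Measurable (Function.uncurry χ2)) :
    Measurable (Function.uncurry (chiGrid l a γ χ2)) := by
  have h : Function.uncurry (chiGrid l a γ χ2)
      = fun q : E3 × E3 => @ite _ (sameCell l a q.1 q.2) (Classical.propDecidable _)
          (γ * Function.uncurry χ2 q) 1 := by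
    funext q; rfl
  rw [h]
  exact Measurable.ite (lp2_measurableSet_sameCell l a) (measurable_const.mul hχ2)
    measurable_const

theorem lp2_measurableSet_box (L : ℝ) : MeasurableSet (box L) := by
  have h : box L = ⋂ i : Fin 3, {p : E3 | 0 ≤ p i ∧ p i ≤ L} := by
    ext p; simp [box]
  rw [h]
  refine MeasurableSet.iInter fun i => ?_
  exact (measurableSet_le measurable_const (lp2_measurable_coord i)).inter
    (measurableSet_le (lp2_measurable_coord i) measurable_const)

/-- Weight of a configuration inside `B` with constant one-body factor. -/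
theorem lp2_wt_indicator_const (B : Set E3) (c : ℝ≥0∞) (ψ : E3 → E3 → ℝ≥0∞) {N : ℕ}
    (x : Fin N → E3) (hx : ∀ i, x i ∈ B) :
    wt (B.indicator fun _ => c) ψ x
      = c ^ N * ∏ i, ∏ j, if i = j then 1 else ψ (x i) (x j) := by
  unfold wt
  have : ∀ i, (B.indicator fun _ => c) (x i) = c := fun i => Set.indicator_of_mem (hx i) _
  simp only [this, Finset.prod_const, Finset.card_univ, Fintype.card_fin]

theorem lp2_wt_indicator_zero (B : Set E3) (c : ℝ≥0∞) (ψ : E3 → E3 → ℝ≥0∞) {N : ℕ}
    (x : Fin N → E3) (hx : ¬ ∀ i, x i ∈ B) :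
    wt (B.indicator fun _ => c) ψ x = 0 := by
  unfold wt
  push Not at hx
  obtain ⟨i, hi⟩ := hx
  rw [Finset.prod_eq_zero (Finset.mem_univ i) (Set.indicator_of_notMem hi _), zero_mul]

/-- `(y ^ p) ^ M = y` when `p = M⁻¹`. -/
theorem lp2_rpow_inv_pow (y : ℝ≥0∞) (M : ℕ) (hM : 0 < M) :
    (y ^ ((M : ℝ))⁻¹) ^ M = y := by
  rw [← ENNReal.rpow_natCast, ← ENNReal.rpow_mul, inv_mul_cancel₀ (by positivity : (M : ℝ) ≠ 0),
    ENNReal.rpow_one]

/-- One cell: the partition function of a cell of the grid equals that of the cell `[0,l)^3`. -/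
theorem lp2_cell (l : ℕ) (hl : 0 < l) (a v : Fin 3 → ℤ) (d γ : ℝ≥0∞) (χ2 : E3 → E3 → ℝ≥0∞)
    (htr : ∀ h x y : E3, χ2 (x + h) (y + h) = χ2 x y) :
    Xi volume ((cell l a v).indicator fun _ => d) (chiGrid l a γ χ2)
      = Xi volume ((cell l 0 0).indicator fun _ => d) (fun x y => γ * χ2 x y) := by
  have h1 : Xi volume ((cell l a v).indicator fun _ => d) (chiGrid l a γ χ2)
      = Xi volume ((cell l a v).indicator fun _ => d) (fun x y => γ * χ2 x y) := by
    refine Xi_indicator_congr volume fun x hx y hy => ?_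
    exact chiGrid_of_sameCell ((sameCell_iff_exists_cell l a x y).2 ⟨v, hx, hy⟩)
  rw [h1]
  have h2 := Vale.Agent.H72.P171.Xi_translate_E3 (corner l a v)
    ((cell l a v).indicator fun _ => d) (fun x y => γ * χ2 x y)
  rw [← h2]
  congr 1
  · funext p
    by_cases hp : p ∈ cell l 0 0
    · have : p + corner l a v ∈ cell l a v := by
        rw [mem_cell_iff_sub_corner l hl a v, add_sub_cancel_right]; exact hp
      rw [Set.indicator_of_mem this, Set.indicator_of_mem hp]
    · have : p + corner l a v ∉ cell l a v := by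
        rw [mem_cell_iff_sub_corner l hl a v, add_sub_cancel_right]; exact hp
      rw [Set.indicator_of_notMem this, Set.indicator_of_notMem hp]
  · funext p q
    rw [htr]

/-- One grid: the partition function of the box with the grid pair factor is at most the
`(K+2)^3`-th power of the one-cell partition function. -/
theorem lp2_grid (l K : ℕ) (hl : 0 < l) (a : Fin 3 → Fin l) (d γ : ℝ≥0∞)
    (χ2 : E3 → E3 → ℝ≥0∞) (hχ2 : Measurable (Function.uncurry χ2))
    (htr : ∀ h x y : E3, χ2 (x + h) (y + h) = χ2 x y) :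
    Xi volume ((box ((K : ℝ) * (l : ℝ))).indicator fun _ => d) (chiGrid l (shift l a) γ χ2)
      ≤ (Xi volume ((cell l 0 0).indicator fun _ => d) (fun x y => γ * χ2 x y)) ^ ((K + 2) ^ 3) := by
  have hsub := box_subset_cells l K hl a
  have hmono : Xi volume ((box ((K : ℝ) * (l : ℝ))).indicator fun _ => d)
        (chiGrid l (shift l a) γ χ2)
      ≤ Xi volume ((⋃ v ∈ idxSet K, cell l (shift l a) v).indicator fun _ => d)
        (chiGrid l (shift l a) γ χ2) := by
    refine Xi_mono volume (fun x => ?_) (fun x y => le_rfl)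
    exact Set.indicator_le_indicator_of_subset hsub (fun _ => zero_le) x
  refine hmono.trans (le_of_eq ?_)
  have hw : Measurable (fun _ : E3 => d) := measurable_const
  rw [Xi_biUnion volume hw (lp2_measurable_chiGrid l (shift l a) γ χ2 hχ2) (idxSet K)
    (cell l (shift l a)) (fun v _ => measurableSet_cell l (shift l a) v)
    (fun v _ v' _ hvv' => cell_disjoint l (shift l a) v v' hvv')
    (fun v _ v' _ hvv' x hx y hy => ?_)]
  · rw [Finset.prod_congr rfl (fun v _ => lp2_cell l hl (shift l a) v d γ χ2 htr),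
      Finset.prod_const, card_idxSet]
  · refine chiGrid_of_not_sameCell fun hsame => hvv' ?_
    have hx' : cellIdx l (shift l a) x = v := hx
    have hy' : cellIdx l (shift l a) y = v' := hy
    rw [← hx', ← hy']
    exact hsame

/-- **LP2.** If the configuration weights satisfy the pointwise inequality (H2) (for injective
configurations inside the box), the partition function of the box `[0, K l]^3` is at most the
`(K+2)^3`-th power of the partition function of one cell `[0,l)^3` with the modified activity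
`c * γ` and pair factor `γ * χ2`. -/
theorem LP2 (l K : ℕ) (hl : 0 < l) (c γ : ℝ≥0∞) (χ χ2 : E3 → E3 → ℝ≥0∞)
    (hχ2 : Measurable (Function.uncurry χ2))
    (htr : ∀ h x y : E3, χ2 (x + h) (y + h) = χ2 x y)
    (hpt : ∀ (N : ℕ) (x : Fin N → E3), Function.Injective x →
      (∀ i, x i ∈ box ((K : ℝ) * (l : ℝ))) →
      (∏ i, ∏ j, if i = j then 1 else χ (x i) (x j)) ≤
        ∏ a : Fin 3 → Fin l, (γ ^ N * ∏ i, ∏ j,
          if i = j then 1 else chiGrid l (shift l a) γ χ2 (x i) (x j)) ^ (((l : ℝ) ^ 3)⁻¹)) :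
    Xi volume ((box ((K : ℝ) * (l : ℝ))).indicator fun _ => c) χ
      ≤ (Xi volume ((cell l 0 0).indicator fun _ => c * γ) (fun x y => γ * χ2 x y))
          ^ ((K + 2) ^ 3) := by
  set B : Set E3 := box ((K : ℝ) * (l : ℝ)) with hB
  have hcard : Fintype.card (Fin 3 → Fin l) = l ^ 3 := by simp
  have hlpos : (0 : ℝ) < (l : ℝ) ^ 3 := by positivity
  have hp1 : ∑ _a ∈ (Finset.univ : Finset (Fin 3 → Fin l)), ((l : ℝ) ^ 3)⁻¹ = 1 := by
    rw [Finset.sum_const, Finset.card_univ, hcard, nsmul_eq_mul]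
    push_cast
    exact mul_inv_cancel₀ hlpos.ne'
  have hM : 0 < l ^ 3 := by positivity
  have hinv : (((l ^ 3 : ℕ) : ℝ))⁻¹ = ((l : ℝ) ^ 3)⁻¹ := by push_cast; rfl
  -- Hoelder over the shifts
  have hH := Xi_le_prod_rpow_inj (volume : Measure E3) (Finset.univ : Finset (Fin 3 → Fin l))
    (fun _ => ((l : ℝ) ^ 3)⁻¹) (fun _ _ => by positivity) hp1
    (B.indicator fun _ => c) χ (fun _ => B.indicator fun _ => c * γ)
    (fun a => chiGrid l (shift l a) γ χ2)
    (fun _ _ => measurable_const.indicator (lp2_measurableSet_box _))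
    (fun a _ => lp2_measurable_chiGrid l (shift l a) γ χ2 hχ2)
    (by
      intro N x hinj
      by_cases hx : ∀ i, x i ∈ B
      · rw [lp2_wt_indicator_const B c χ x hx]
        have h1 : ∀ a : Fin 3 → Fin l,
            wt (B.indicator fun _ => c * γ) (chiGrid l (shift l a) γ χ2) x ^ ((l : ℝ) ^ 3)⁻¹
              = (c ^ N) ^ ((l : ℝ) ^ 3)⁻¹ * (γ ^ N * ∏ i, ∏ j,
                  if i = j then 1 else chiGrid l (shift l a) γ χ2 (x i) (x j)) ^ ((l : ℝ) ^ 3)⁻¹ := by
          intro a
          rw [lp2_wt_indicator_const B (c * γ) _ x hx, mul_pow, mul_assoc,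
            ENNReal.mul_rpow_of_nonneg _ _ (by positivity)]
        simp only [h1, Finset.prod_mul_distrib]
        rw [Finset.prod_const, Finset.card_univ, hcard, ← hinv, lp2_rpow_inv_pow _ _ hM, hinv]
        exact mul_le_mul' le_rfl (hpt N x hinj hx)
      · rw [lp2_wt_indicator_zero B c χ x hx]
        exact zero_le)
  refine hH.trans ?_
  calc ∏ a : Fin 3 → Fin l,
        Xi volume (B.indicator fun _ => c * γ) (chiGrid l (shift l a) γ χ2) ^ ((l : ℝ) ^ 3)⁻¹
      ≤ ∏ _a : Fin 3 → Fin l,
        ((Xi volume ((cell l 0 0).indicator fun _ => c * γ) (fun x y => γ * χ2 x y))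
          ^ ((K + 2) ^ 3)) ^ ((l : ℝ) ^ 3)⁻¹ :=
        Finset.prod_le_prod' fun a _ =>
          ENNReal.rpow_le_rpow (lp2_grid l K hl a (c * γ) γ χ2 hχ2 htr) (by positivity)
    _ = (Xi volume ((cell l 0 0).indicator fun _ => c * γ) (fun x y => γ * χ2 x y))
          ^ ((K + 2) ^ 3) := by
        rw [Finset.prod_const, Finset.card_univ, hcard, ← hinv, lp2_rpow_inv_pow _ _ hM]

end Vale.Agent.H4.P171
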