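import Mathlib
import Vale.Agent.H79.LP.Cells
import Vale.Agent.H4.P171.XiBridge
import Vale.Agent.H4.P171.LP2

/-!
# P171 moonshot, LP1: exponentiation of the pointwise energy inequality (helper4)

`lp1_exp`: the real inequality (H2) between pair energies (energy of the whole configuration
against the average over the `l^3` shifted grids of the cell energies, with the mean-field
term `2 s1 * sameCount`) implies the inequality `hpt` between configuration weights that
`LP2` consumes.  Abstract in the two potentials `g`, `g2`.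
-/

open MeasureTheory ENNReal
open scoped BigOperators

namespace Vale.Agent.H4.P171

open Vale.Agent.H79.LP

theorem lp1_prod_offdiag {N : ℕ} (r : Fin N → Fin N → ℝ) :
    (∏ i, ∏ j, if i = j then (1 : ℝ≥0∞) else ENNReal.ofReal (Real.exp (r i j)))
      = ENNReal.ofReal (Real.exp (∑ i, ∑ j, if i = j then 0 else r i j)) := by
  rw [Real.exp_sum, ENNReal.ofReal_prod_of_nonneg (fun i _ => (Real.exp_pos _).le)]
  refine Finset.prod_congr rfl fun i _ => ?_
  rw [Real.exp_sum, ENNReal.ofReal_prod_of_nonneg (fun j _ => (Real.exp_pos _).le)]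
  refine Finset.prod_congr rfl fun j _ => ?_
  split_ifs
  · simp
  · rfl

open Classical in
/-- The grid pair factor as a single exponential. -/
theorem lp1_chiGrid_eq (l : ℕ) (a : Fin 3 → ℤ) (s1 : ℝ) (g2 : ℝ → ℝ) (p q : E3) :
    chiGrid l a (ENNReal.ofReal (Real.exp s1)) (pairFactor g2) p q
      = ENNReal.ofReal (Real.exp (if sameCell l a p q then s1 + -(g2 (dist p q)) / 2 else 0)) := by
  by_cases h : sameCell l a p q
  · rw [chiGrid_of_sameCell h, if_pos h, Real.exp_add, ENNReal.ofReal_mul (Real.exp_pos _).le]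
    rfl
  · rw [chiGrid_of_not_sameCell h, if_neg h, Real.exp_zero, ENNReal.ofReal_one]

open Classical in
/-- `sameCount` as a double sum. -/
theorem lp1_sameCount_eq (l : ℕ) (a : Fin 3 → ℤ) {N : ℕ} (x : Fin N → E3) :
    (sameCount l a x : ℝ)
      = (N : ℝ) + ∑ i : Fin N, ∑ j : Fin N,
          if i ≠ j ∧ sameCell l a (x i) (x j) then (1 : ℝ) else 0 := by
  unfold sameCount
  rw [Finset.card_filter]
  push_cast
  rw [Fintype.sum_prod_type]
  have h1 : ∀ i j : Fin N, (if sameCell l a (x i) (x j) then (1 : ℝ) else 0)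
      = (if i = j then 1 else 0) + (if i ≠ j ∧ sameCell l a (x i) (x j) then (1 : ℝ) else 0) := by
    intro i j
    by_cases hij : i = j
    · subst hij
      have : sameCell l a (x i) (x i) := rfl
      simp [this]
    · by_cases hs : sameCell l a (x i) (x j) <;> simp [hij, hs]
  simp_rw [h1, Finset.sum_add_distrib]
  simp

open Classical in
/-- **LP1, exponentiation step.** -/
theorem lp1_exp (l N : ℕ) (g g2 : ℝ → ℝ) (s1 : ℝ) (x : Fin N → E3)
    (hE : ((l : ℝ) ^ 3)⁻¹ * ∑ a : Fin 3 → Fin l,
        ((∑ i : Fin N, ∑ j : Fin N,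
            if i ≠ j ∧ sameCell l (shift l a) (x i) (x j) then g2 (dist (x i) (x j)) else 0)
          - 2 * s1 * (sameCount l (shift l a) x : ℝ))
      ≤ ∑ i : Fin N, ∑ j : Fin N, if i ≠ j then g (dist (x i) (x j)) else 0) :
    (∏ i, ∏ j, if i = j then 1 else pairFactor g (x i) (x j)) ≤
      ∏ a : Fin 3 → Fin l, (ENNReal.ofReal (Real.exp s1) ^ N * ∏ i, ∏ j,
        if i = j then 1
        else chiGrid l (shift l a) (ENNReal.ofReal (Real.exp s1)) (pairFactor g2) (x i) (x j))
          ^ (((l : ℝ) ^ 3)⁻¹) := by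
  -- left side
  have hL : (∏ i, ∏ j, if i = j then 1 else pairFactor g (x i) (x j))
      = ENNReal.ofReal (Real.exp (∑ i : Fin N, ∑ j : Fin N,
          if i = j then 0 else -(g (dist (x i) (x j))) / 2)) :=
    lp1_prod_offdiag (fun i j => -(g (dist (x i) (x j))) / 2)
  -- right side, one grid
  have hR : ∀ a : Fin 3 → Fin l,
      (ENNReal.ofReal (Real.exp s1) ^ N * ∏ i, ∏ j,
        if i = j then 1
        else chiGrid l (shift l a) (ENNReal.ofReal (Real.exp s1)) (pairFactor g2) (x i) (x j))
          ^ (((l : ℝ) ^ 3)⁻¹)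
        = ENNReal.ofReal (Real.exp (((N : ℝ) * s1 + ∑ i : Fin N, ∑ j : Fin N,
            if i = j then 0
            else (if sameCell l (shift l a) (x i) (x j)
              then s1 + -(g2 (dist (x i) (x j))) / 2 else 0)) * ((l : ℝ) ^ 3)⁻¹)) := by
    intro a
    simp_rw [lp1_chiGrid_eq]
    rw [lp1_prod_offdiag (fun i j => if sameCell l (shift l a) (x i) (x j)
          then s1 + -(g2 (dist (x i) (x j))) / 2 else 0),
      ← ENNReal.ofReal_pow (Real.exp_pos _).le, ← Real.exp_nat_mul,
      ← ENNReal.ofReal_mul (Real.exp_pos _).le, ← Real.exp_add,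
      ENNReal.ofReal_rpow_of_pos (Real.exp_pos _), ← Real.exp_mul]
  rw [hL, Finset.prod_congr rfl (fun a _ => hR a),
    ← ENNReal.ofReal_prod_of_nonneg (fun a _ => (Real.exp_pos _).le), ← Real.exp_sum]
  refine ENNReal.ofReal_le_ofReal (Real.exp_le_exp.2 ?_)
  -- the real inequality
  have hG : (∑ i : Fin N, ∑ j : Fin N, if i = j then 0 else -(g (dist (x i) (x j))) / 2)
      = -(1 / 2 : ℝ) * ∑ i : Fin N, ∑ j : Fin N, if i ≠ j then g (dist (x i) (x j)) else 0 := by
    rw [Finset.mul_sum]
    refine Finset.sum_congr rfl fun i _ => ?_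
    rw [Finset.mul_sum]
    refine Finset.sum_congr rfl fun j _ => ?_
    by_cases hij : i = j
    · simp [hij]
    · simp [hij]; ring
  have hT : ∀ a : Fin 3 → Fin l,
      ((N : ℝ) * s1 + ∑ i : Fin N, ∑ j : Fin N,
          if i = j then 0
          else (if sameCell l (shift l a) (x i) (x j)
            then s1 + -(g2 (dist (x i) (x j))) / 2 else 0))
        = -(1 / 2 : ℝ) * ((∑ i : Fin N, ∑ j : Fin N,
            if i ≠ j ∧ sameCell l (shift l a) (x i) (x j) then g2 (dist (x i) (x j)) else 0)
          - 2 * s1 * (sameCount l (shift l a) x : ℝ)) := by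
    intro a
    rw [lp1_sameCount_eq]
    have h1 : ∀ i j : Fin N,
        (if i = j then (0 : ℝ)
          else (if sameCell l (shift l a) (x i) (x j)
            then s1 + -(g2 (dist (x i) (x j))) / 2 else 0))
          = s1 * (if i ≠ j ∧ sameCell l (shift l a) (x i) (x j) then (1 : ℝ) else 0)
            - (1 / 2 : ℝ) * (if i ≠ j ∧ sameCell l (shift l a) (x i) (x j)
                then g2 (dist (x i) (x j)) else 0) := by
      intro i j
      by_cases hij : i = j
      · simp [hij]
      · by_cases hs : sameCell l (shift l a) (x i) (x j)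
        · simp [hij, hs]; ring
        · simp [hij, hs]
    simp_rw [h1, Finset.sum_sub_distrib, ← Finset.mul_sum]
    ring
  rw [hG]
  simp_rw [hT]
  rw [← Finset.sum_mul, ← Finset.mul_sum]
  have h2 := hE
  nlinarith [h2]

end Vale.Agent.H4.P171
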